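import Vale.Agent.P273.H214.Branch

/-!
# P273, row BULK-POTH, output: from the potentials on the charts `Dm S` to the flat form

`Dm S` = the pairs (configuration, point) for which there is a graph path from the point to
`+∞` that passes below the roots in `S` and above the others.  `Pot` = square roots, primitives
and half periods on these charts with the flip rules at generic points.  `Flat` = coefficients
`A, c` with constant values at the roots.  The form `eta` does not depend on the chart.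
-/

namespace Vale.Agent.P273.H580

open scoped ContDiff Topology
open Set Filter
open Vale.Agent.P273.H214

noncomputable section

/-! ### the sets -/

/-- of two roots with the same real part the one with the smaller label is above -/
def XO : Set Bs := {b | ∀ i j, i < j → (b i).re = (b j).re → (b j).im < (b i).im}

/-- different real parts -/
def Gb : Set Bs := {b | ∀ i j, i ≠ j → (b i).re ≠ (b j).re}

/-- generic points -/
def Gen : Set (Bs × ℂ) := {p | p.1 ∈ Gb ∧ ∀ l, (p.1 l).re ≠ p.2.re}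

/-- the chart with index `S` -/
def Dm (S : Finset (Fin 6)) : Set (Bs × ℂ) :=
  {p | (∀ l ∈ S, ∀ m, m ∉ S → (p.1 l).re = (p.1 m).re → p.2.re ≤ (p.1 l).re →
      (p.1 m).im < (p.1 l).im) ∧
    (∀ l ∈ S, (p.1 l).re = p.2.re → p.2.im < (p.1 l).im) ∧
    (∀ l, l ∉ S → (p.1 l).re = p.2.re → (p.1 l).im < p.2.im)}

lemma isOpen_imp {X : Type*} [TopologicalSpace X] {a b e f : X → ℝ} (ha : Continuous a)
    (hb : Continuous b) (he : Continuous e) (hf : Continuous f) :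
    IsOpen {p | a p = b p → e p < f p} := by
  have h : {p | a p = b p → e p < f p} = ({p | a p = b p} ∩ {p | f p ≤ e p})ᶜ := by
    ext p
    rw [mem_compl_iff, mem_inter_iff]
    exact ⟨fun h h' => not_le.2 (h h'.1) h'.2, fun h h1 => not_le.1 fun h2 => h ⟨h1, h2⟩⟩
  rw [h]
  exact ((isClosed_eq ha hb).inter (isClosed_le hf he)).isOpen_compl

lemma isOpen_imp2 {X : Type*} [TopologicalSpace X] {a b c d e f : X → ℝ} (ha : Continuous a)
    (hb : Continuous b) (hc : Continuous c) (hd : Continuous d) (he : Continuous e)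
    (hf : Continuous f) : IsOpen {p | a p = b p → c p ≤ d p → e p < f p} := by
  have h : {p | a p = b p → c p ≤ d p → e p < f p} =
      ({p | a p = b p} ∩ ({p | c p ≤ d p} ∩ {p | f p ≤ e p}))ᶜ := by
    ext p
    rw [mem_compl_iff, mem_inter_iff, mem_inter_iff]
    exact ⟨fun h h' => not_le.2 (h h'.1 h'.2.1) h'.2.2,
      fun h h1 h3 => not_le.1 fun h2 => h ⟨h1, h3, h2⟩⟩
  rw [h]
  exact ((isClosed_eq ha hb).inter ((isClosed_le hc hd).inter (isClosed_le hf he))).isOpen_compl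

theorem isOpen_XO : IsOpen XO := by
  have h : XO = ⋂ i : Fin 6, ⋂ j : Fin 6, ⋂ _ : i < j,
      {b : Bs | (b i).re = (b j).re → (b j).im < (b i).im} := by
    ext b
    simp only [mem_iInter]
    exact Iff.rfl
  rw [h]
  refine isOpen_iInter_of_finite fun i => isOpen_iInter_of_finite fun j =>
    isOpen_iInter_of_finite fun _ => isOpen_imp ?_ ?_ ?_ ?_ <;> fun_prop

theorem XO_sub_Cf : XO ⊆ Cf := by
  intro b hb i j hij
  by_contra hne
  rcases lt_or_gt_of_ne hne with h | h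
  · have := hb i j h (by rw [hij])
    rw [hij] at this
    exact lt_irrefl _ this
  · have := hb j i h (by rw [hij])
    rw [hij] at this
    exact lt_irrefl _ this

theorem isOpen_Gb : IsOpen Gb := by
  have h : Gb = ⋂ i : Fin 6, ⋂ j : Fin 6, ⋂ _ : i ≠ j, {b : Bs | (b i).re ≠ (b j).re} := by
    ext b
    simp only [mem_iInter]
    exact Iff.rfl
  rw [h]
  refine isOpen_iInter_of_finite fun i => isOpen_iInter_of_finite fun j =>
    isOpen_iInter_of_finite fun _ => isOpen_ne_fun ?_ ?_ <;> fun_prop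

theorem Gb_sub_XO : Gb ⊆ XO := fun _ hb i j hij h => absurd h (hb i j hij.ne)

theorem isOpen_Gen : IsOpen Gen := by
  have h : Gen = {p : Bs × ℂ | p.1 ∈ Gb} ∩ ⋂ l : Fin 6, {p : Bs × ℂ | (p.1 l).re ≠ p.2.re} := by
    ext p
    simp only [mem_inter_iff, mem_iInter]
    exact Iff.rfl
  rw [h]
  refine (isOpen_Gb.preimage continuous_fst).inter
    (isOpen_iInter_of_finite fun l => isOpen_ne_fun ?_ ?_) <;> fun_prop

theorem isOpen_Dm (S : Finset (Fin 6)) : IsOpen (Dm S) := by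
  have h : Dm S = (⋂ l : Fin 6, ⋂ _ : l ∈ S, ⋂ m : Fin 6, ⋂ _ : m ∉ S,
      {p : Bs × ℂ | (p.1 l).re = (p.1 m).re → p.2.re ≤ (p.1 l).re →
        (p.1 m).im < (p.1 l).im}) ∩
      ((⋂ l : Fin 6, ⋂ _ : l ∈ S, {p : Bs × ℂ | (p.1 l).re = p.2.re → p.2.im < (p.1 l).im}) ∩
      (⋂ l : Fin 6, ⋂ _ : l ∉ S, {p : Bs × ℂ | (p.1 l).re = p.2.re → (p.1 l).im < p.2.im})) := by
    ext p
    simp only [mem_inter_iff, mem_iInter]
    exact Iff.rfl
  rw [h]
  refine IsOpen.inter ?_ (IsOpen.inter ?_ ?_)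
  · refine isOpen_iInter_of_finite fun l => isOpen_iInter_of_finite fun _ =>
      isOpen_iInter_of_finite fun m => isOpen_iInter_of_finite fun _ =>
      isOpen_imp2 ?_ ?_ ?_ ?_ ?_ ?_ <;> fun_prop
  · refine isOpen_iInter_of_finite fun l => isOpen_iInter_of_finite fun _ =>
      isOpen_imp ?_ ?_ ?_ ?_ <;> fun_prop
  · refine isOpen_iInter_of_finite fun l => isOpen_iInter_of_finite fun _ =>
      isOpen_imp ?_ ?_ ?_ ?_ <;> fun_prop

theorem Gen_sub_Dm (S : Finset (Fin 6)) : Gen ⊆ Dm S := by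
  rintro p ⟨h1, h2⟩
  refine ⟨fun l hl m hm h => ?_, fun l _ h => absurd h (h2 l), fun l _ h => absurd h (h2 l)⟩
  exact absurd h (h1 l m fun h' => hm (h' ▸ hl))

theorem ff_ne_of_Dm {S : Finset (Fin 6)} {p : Bs × ℂ} (h : p ∈ Dm S) : ff p ≠ 0 := by
  rw [ff_ne_zero_iff]
  intro l hl
  by_cases hS : l ∈ S
  · have := h.2.1 l hS (by rw [hl])
    rw [hl] at this
    exact lt_irrefl _ this
  · have := h.2.2 l hS (by rw [hl])
    rw [hl] at this
    exact lt_irrefl _ this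

open Classical in
/-- the canonical index: the roots straight above the point -/
def Sx (p : Bs × ℂ) : Finset (Fin 6) :=
  Finset.univ.filter fun l => (p.1 l).re = p.2.re ∧ p.2.im < (p.1 l).im

theorem mem_Sx {p : Bs × ℂ} {l : Fin 6} : l ∈ Sx p ↔ (p.1 l).re = p.2.re ∧ p.2.im < (p.1 l).im := by
  simp [Sx]

theorem mem_Dm_Sx {p : Bs × ℂ} (h : ff p ≠ 0) : p ∈ Dm (Sx p) := by
  rw [ff_ne_zero_iff] at h
  refine ⟨fun l hl m hm h1 _ => ?_, fun l hl _ => (mem_Sx.1 hl).2, fun l hl h1 => ?_⟩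
  · obtain ⟨h3, h4⟩ := mem_Sx.1 hl
    have h5 : ¬ (p.2.im < (p.1 m).im) := fun h6 => hm (mem_Sx.2 ⟨by rw [← h1, h3], h6⟩)
    exact lt_of_le_of_lt (not_lt.1 h5) h4
  · have h5 : ¬ (p.2.im < (p.1 l).im) := fun h6 => hl (mem_Sx.2 ⟨h1, h6⟩)
    refine lt_of_le_of_ne (not_lt.1 h5) fun h6 => ?_
    exact h l (Complex.ext h1.symm h6.symm)

/-! ### density of the generic points -/

lemma sq_one {z : ℂ} (h : z ^ 2 = 1) : z = 1 ∨ z = -1 := by
  have h1 : (z - 1) * (z + 1) = 0 := by linear_combination h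
  rcases mul_eq_zero.1 h1 with h2 | h2
  · exact Or.inl (sub_eq_zero.1 h2)
  · exact Or.inr (eq_neg_of_add_eq_zero_left h2)

lemma ev_ne {α β : ℝ} (hβ : β ≠ 0) : ∀ᶠ t in 𝓝[≠] (0 : ℝ), α + t * β ≠ 0 := by
  by_cases hα : α = 0
  · filter_upwards [self_mem_nhdsWithin] with t ht
    rw [hα, zero_add]
    exact mul_ne_zero ht hβ
  · have hc : ContinuousAt (fun t : ℝ => α + t * β) 0 := by fun_prop
    have : ∀ᶠ t in 𝓝 (0 : ℝ), α + t * β ≠ 0 := hc.eventually_ne (by simpa using hα)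
    exact this.filter_mono nhdsWithin_le_nhds

/-- the curve of generic points -/
def qt (p : Bs × ℂ) (t : ℝ) : Bs × ℂ := (fun l => p.1 l + (t * ((l : ℕ) + 1 : ℝ) : ℝ), p.2)

lemma qt_tendsto (p : Bs × ℂ) : Tendsto (qt p) (𝓝[≠] 0) (𝓝 p) := by
  have hc : Continuous (qt p) := by
    unfold qt
    fun_prop
  have h0 : qt p 0 = p := by
    unfold qt
    simp
  have := (hc.tendsto 0).mono_left (nhdsWithin_le_nhds (s := {0}ᶜ))
  rwa [h0] at this

lemma qt_gen (p : Bs × ℂ) : ∀ᶠ t in 𝓝[≠] (0 : ℝ), qt p t ∈ Gen := by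
  have h1 : ∀ᶠ t in 𝓝[≠] (0 : ℝ), ∀ i j : Fin 6, i ≠ j → (qt p t).1 i ≠ (qt p t).1 j ∧
      ((qt p t).1 i).re ≠ ((qt p t).1 j).re := by
    rw [eventually_all]
    intro i
    rw [eventually_all]
    intro j
    by_cases hij : i = j
    · exact Eventually.of_forall fun t h => absurd hij h
    · have hβ : (((i : ℕ) : ℝ) - ((j : ℕ) : ℝ)) ≠ 0 := by
        rw [sub_ne_zero]
        intro h
        exact hij (Fin.ext (by exact_mod_cast h))
      filter_upwards [ev_ne (α := (p.1 i).re - (p.1 j).re) hβ] with t ht _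
      have hre : ((qt p t).1 i).re ≠ ((qt p t).1 j).re := by
        intro h
        apply ht
        simp only [qt, Complex.add_re, Complex.ofReal_re] at h
        linarith
      exact ⟨fun h => hre (by rw [h]), hre⟩
  have h2 : ∀ᶠ t in 𝓝[≠] (0 : ℝ), ∀ l : Fin 6, ((qt p t).1 l).re ≠ p.2.re := by
    rw [eventually_all]
    intro l
    have hβ : (((l : ℕ) : ℝ) + 1) ≠ 0 := by positivity
    filter_upwards [ev_ne (α := (p.1 l).re - p.2.re) hβ] with t ht h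
    apply ht
    simp only [qt, Complex.add_re, Complex.ofReal_re] at h
    linarith
  filter_upwards [h1, h2] with t h3 h4
  exact ⟨fun i j hij => (h3 i j hij).2, h4⟩

/-! ### the data -/

/-- square roots `s`, primitives `P` of `(dx / s, x dx / s)` and half periods `pj` on the charts,
with the flip rules at generic points -/
structure Pot where
  s : Finset (Fin 6) → Bs × ℂ → ℂ
  P : Finset (Fin 6) → Bs × ℂ → ℂ × ℂ
  pj : Finset (Fin 6) → Fin 6 → Bs → ℂ × ℂ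
  s_cont : ∀ S, ∀ p ∈ Dm S, ContinuousAt (s S) p
  s_sq : ∀ S, ∀ p ∈ Dm S, s S p ^ 2 = ff p
  P_sm : ∀ S, ∀ p ∈ Dm S, p.1 ∈ XO → ContDiffAt ℝ ∞ (P S) p
  P_x : ∀ S, ∀ p ∈ Dm S, p.1 ∈ XO →
    HasDerivAt (fun x : ℂ => P S (p.1, x)) ((1 / s S p, p.2 / s S p) : ℂ × ℂ) p.2
  s_r : ∀ S, ∀ m ∉ S, ∀ p ∈ Gen, (p.1 m).re < p.2.re → s (insert m S) p = s S p
  s_l : ∀ S, ∀ m ∉ S, ∀ p ∈ Gen, p.2.re < (p.1 m).re → s (insert m S) p = -s S p
  P_r : ∀ S, ∀ m ∉ S, ∀ p ∈ Gen, (p.1 m).re < p.2.re → P (insert m S) p = P S p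
  P_l : ∀ S, ∀ m ∉ S, ∀ p ∈ Gen, p.2.re < (p.1 m).re →
    P (insert m S) p = pj S m p.1 + pj S m p.1 - P S p
  pj_r : ∀ S, ∀ j ∉ S, ∀ m ∉ S, m ≠ j → ∀ b ∈ Gb, (b m).re < (b j).re →
    pj (insert m S) j b = pj S j b
  pj_l : ∀ S, ∀ j ∉ S, ∀ m ∉ S, m ≠ j → ∀ b ∈ Gb, (b j).re < (b m).re →
    pj (insert m S) j b = pj S m b + pj S m b - pj S j b

variable {H : Type*} [NormedAddCommGroup H] [NormedSpace ℝ H]

/-- coefficients with constant values at the roots -/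
structure Flat (Q : Pot) (A : Bs → (ℂ × ℂ →L[ℝ] H)) (c : Bs → H) (ξ : Fin 6 → H) : Prop where
  smA : ∀ b ∈ XO, ContDiffAt ℝ ∞ A b
  smc : ∀ b ∈ XO, ContDiffAt ℝ ∞ c b
  val : ∀ b ∈ XO, ∀ j, A b (Q.pj (Finset.univ.filter (· < j)) j b) + c b = ξ j

/-- the potential in the chart `S` -/
def Gf (Q : Pot) (A : Bs → (ℂ × ℂ →L[ℝ] H)) (c : Bs → H) (S : Finset (Fin 6)) (p : Bs × ℂ) : H :=
  A p.1 (Q.P S p) + c p.1

/-- the value at a root -/
def vl (Q : Pot) (A : Bs → (ℂ × ℂ →L[ℝ] H)) (c : Bs → H) (S : Finset (Fin 6)) (j : Fin 6)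
    (b : Bs) : H := A b (Q.pj S j b) + c b

/-- the form -/
def eta (Q : Pot) (A : Bs → (ℂ × ℂ →L[ℝ] H)) (c : Bs → H) (b : Bs) (x y : ℂ) :
    Bs × ℂ →L[ℝ] H :=
  (y / Q.s (Sx (b, x)) (b, x)).re • fderiv ℝ (Gf Q A c (Sx (b, x))) (b, x)

section
variable {Q : Pot} {A : Bs → (ℂ × ℂ →L[ℝ] H)} {c : Bs → H} {ξ : Fin 6 → H}

theorem eta_neg (b : Bs) (x y : ℂ) : eta Q A c b x (-y) = -eta Q A c b x y := by
  refine ContinuousLinearMap.ext fun v => ?_
  simp [eta, neg_div]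

theorem Flat.smG (h : Flat Q A c ξ) {S : Finset (Fin 6)} {p : Bs × ℂ} (hp : p ∈ Dm S)
    (hb : p.1 ∈ XO) : ContDiffAt ℝ ∞ (Gf Q A c S) p := by
  have h1 : ContDiffAt ℝ ∞ (fun q : Bs × ℂ => A q.1) p :=
    ContDiffAt.comp (g := A) p (h.smA _ hb) contDiffAt_fst
  have h2 : ContDiffAt ℝ ∞ (fun q : Bs × ℂ => c q.1) p :=
    ContDiffAt.comp (g := c) p (h.smc _ hb) contDiffAt_fst
  exact (h1.clm_apply (Q.P_sm S p hp hb)).add h2

theorem Flat.diffG (h : Flat Q A c ξ) {S : Finset (Fin 6)} {p : Bs × ℂ} (hp : p ∈ Dm S)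
    (hb : p.1 ∈ XO) : DifferentiableAt ℝ (Gf Q A c S) p :=
  (h.smG hp hb).differentiableAt (by simp)

theorem Flat.smD (h : Flat Q A c ξ) {S : Finset (Fin 6)} {p : Bs × ℂ} (hp : p ∈ Dm S)
    (hb : p.1 ∈ XO) : ContDiffAt ℝ ∞ (fderiv ℝ (Gf Q A c S)) p :=
  (h.smG hp hb).fderiv_right (by simp)

/-! ### the values at the roots are locally constant -/

theorem vl_ins_r {S : Finset (Fin 6)} {j m : Fin 6} (hj : j ∉ S) (hm : m ∉ S) (hmj : m ≠ j)
    {b : Bs} (hb : b ∈ Gb) (hlt : (b m).re < (b j).re) :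
    vl Q A c (insert m S) j b = vl Q A c S j b := by
  unfold vl
  rw [Q.pj_r S j hj m hm hmj b hb hlt]

theorem vl_ins_l {S : Finset (Fin 6)} {j m : Fin 6} (hj : j ∉ S) (hm : m ∉ S) (hmj : m ≠ j)
    {b : Bs} (hb : b ∈ Gb) (hlt : (b j).re < (b m).re) :
    vl Q A c (insert m S) j b = vl Q A c S m b + vl Q A c S m b - vl Q A c S j b := by
  unfold vl
  rw [Q.pj_l S j hj m hm hmj b hb hlt, map_sub, map_add]
  abel

theorem Flat.vl_const (h : Flat Q A c ξ) {b0 : Bs} (hb0 : b0 ∈ Gb) : ∀ (n : ℕ) (j : Fin 6),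
    (Finset.univ.filter fun l => (b0 j).re < (b0 l).re).card = n → ∀ S : Finset (Fin 6), j ∉ S →
    ∀ᶠ b in 𝓝 b0, vl Q A c S j b = vl Q A c S j b0 := by
  intro n
  induction n using Nat.strong_induction_on with
  | _ n ih =>
    intro j hn
    have hG : ∀ᶠ b in 𝓝 b0, b ∈ Gb := isOpen_Gb.mem_nhds hb0
    -- the roots on the right
    have hr : ∀ m, (b0 j).re < (b0 m).re → ∀ S : Finset (Fin 6), m ∉ S →
        ∀ᶠ b in 𝓝 b0, vl Q A c S m b = vl Q A c S m b0 := by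
      intro m hm
      refine ih _ ?_ m rfl
      rw [← hn]
      refine Finset.card_lt_card ?_
      rw [Finset.ssubset_iff_of_subset]
      · exact ⟨m, by simpa using hm, by simp⟩
      · intro l hl
        simp only [Finset.mem_filter, Finset.mem_univ, true_and] at hl ⊢
        exact hm.trans hl
    -- one step
    have step : ∀ S : Finset (Fin 6), j ∉ S → ∀ m, m ∉ S → m ≠ j →
        ((∀ᶠ b in 𝓝 b0, vl Q A c S j b = vl Q A c S j b0) ↔
          ∀ᶠ b in 𝓝 b0, vl Q A c (insert m S) j b = vl Q A c (insert m S) j b0) := by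
      intro S hj m hm hmj
      rcases lt_or_gt_of_ne (hb0 m j hmj) with hlt | hlt
      · have e0 := vl_ins_r (Q := Q) (A := A) (c := c) hj hm hmj hb0 hlt
        have e1 : ∀ᶠ b in 𝓝 b0, vl Q A c (insert m S) j b = vl Q A c S j b := by
          have : ∀ᶠ b in 𝓝 b0, ((b : Bs) m).re < (b j).re :=
            (isOpen_lt (by fun_prop) (by fun_prop)).mem_nhds hlt
          filter_upwards [hG, this] with b h1 h2
          exact vl_ins_r hj hm hmj h1 h2
        constructor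
        · intro h1
          filter_upwards [h1, e1] with b h2 h3
          rw [h3, h2, e0]
        · intro h1
          filter_upwards [h1, e1] with b h2 h3
          rw [← h3, h2, e0]
      · have e0 := vl_ins_l (Q := Q) (A := A) (c := c) hj hm hmj hb0 hlt
        have e1 : ∀ᶠ b in 𝓝 b0, vl Q A c (insert m S) j b =
            vl Q A c S m b + vl Q A c S m b - vl Q A c S j b := by
          have : ∀ᶠ b in 𝓝 b0, ((b : Bs) j).re < (b m).re :=
            (isOpen_lt (by fun_prop) (by fun_prop)).mem_nhds hlt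
          filter_upwards [hG, this] with b h1 h2
          exact vl_ins_l hj hm hmj h1 h2
        have e2 := hr m hlt S hm
        constructor
        · intro h1
          filter_upwards [h1, e1, e2] with b h2 h3 h4
          rw [h3, h4, h2, e0]
        · intro h1
          filter_upwards [h1, e1, e2] with b h2 h3 h4
          have h5 : vl Q A c S m b0 + vl Q A c S m b0 - vl Q A c S j b =
              vl Q A c S m b0 + vl Q A c S m b0 - vl Q A c S j b0 := by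
            rw [← e0, ← h2, h3, h4]
          exact sub_right_injective h5
    have all : ∀ S : Finset (Fin 6), j ∉ S →
        ((∀ᶠ b in 𝓝 b0, vl Q A c ∅ j b = vl Q A c ∅ j b0) ↔
          ∀ᶠ b in 𝓝 b0, vl Q A c S j b = vl Q A c S j b0) := by
      intro S
      induction S using Finset.induction_on with
      | empty => exact fun _ => Iff.rfl
      | insert m S hm ihS =>
        intro hj
        rw [Finset.mem_insert, not_or] at hj
        exact (ihS hj.2).trans (step S hj.2 m hm (Ne.symm hj.1))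
    have base : ∀ᶠ b in 𝓝 b0, vl Q A c (Finset.univ.filter (· < j)) j b =
        vl Q A c (Finset.univ.filter (· < j)) j b0 := by
      have h1 : ∀ᶠ b in 𝓝 b0, b ∈ XO := isOpen_XO.mem_nhds (Gb_sub_XO hb0)
      filter_upwards [h1] with b h2
      exact (h.val b h2 j).trans (h.val b0 (Gb_sub_XO hb0) j).symm
    intro S hS
    exact (all S hS).1 ((all _ (by simp)).2 base)

/-! ### comparison of the charts -/

theorem Flat.rel (h : Flat Q A c ξ) {p0 : Bs × ℂ} (hp0 : p0 ∈ Gen) (S : Finset (Fin 6)) :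
    ∃ ε : ℝ, (ε = 1 ∨ ε = -1) ∧ ∃ κ : H, ∀ᶠ p in 𝓝 p0, Q.s S p = ε * Q.s ∅ p ∧
      Gf Q A c S p = ε • Gf Q A c ∅ p + κ := by
  induction S using Finset.induction_on with
  | empty => exact ⟨1, Or.inl rfl, 0, Eventually.of_forall fun p => by simp⟩
  | insert m S hm ih =>
    obtain ⟨ε, hε, κ, hk⟩ := ih
    have hG : ∀ᶠ p in 𝓝 p0, p ∈ Gen := isOpen_Gen.mem_nhds hp0
    rcases lt_or_gt_of_ne (hp0.2 m) with hlt | hlt
    · refine ⟨ε, hε, κ, ?_⟩
      have : ∀ᶠ p in 𝓝 p0, ((p : Bs × ℂ).1 m).re < p.2.re :=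
        (isOpen_lt (by fun_prop) (by fun_prop)).mem_nhds hlt
      filter_upwards [hk, hG, this] with p h1 h2 h3
      refine ⟨by rw [Q.s_r S m hm p h2 h3]; exact h1.1, ?_⟩
      rw [← h1.2]
      unfold Gf
      rw [Q.P_r S m hm p h2 h3]
    · refine ⟨-ε, ?_, vl Q A c S m p0.1 + vl Q A c S m p0.1 - κ, ?_⟩
      · rcases hε with rfl | rfl
        · exact Or.inr rfl
        · exact Or.inl (by norm_num)
      have h4 : ∀ᶠ p in 𝓝 p0, (p : Bs × ℂ).2.re < (p.1 m).re :=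
        (isOpen_lt (by fun_prop) (by fun_prop)).mem_nhds hlt
      have h5 : ∀ᶠ p in 𝓝 p0, vl Q A c S m (p : Bs × ℂ).1 = vl Q A c S m p0.1 :=
        continuous_fst.continuousAt.eventually (h.vl_const hp0.1 _ m rfl S hm)
      filter_upwards [hk, hG, h4, h5] with p h1 h2 h3 h6
      refine ⟨?_, ?_⟩
      · rw [Q.s_l S m hm p h2 h3, h1.1]
        push_cast
        ring
      · have h7 : Gf Q A c (insert m S) p =
            vl Q A c S m p.1 + vl Q A c S m p.1 - Gf Q A c S p := by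
          unfold Gf vl
          rw [Q.P_l S m hm p h2 h3, map_sub, map_add]
          abel
        rw [h7, h6, h1.2, neg_smul]
        abel

theorem Flat.rel_fderiv (h : Flat Q A c ξ) {p0 : Bs × ℂ} (hp0 : p0 ∈ Gen) (S : Finset (Fin 6)) :
    ∃ ε : ℝ, (ε = 1 ∨ ε = -1) ∧ Q.s S p0 = ε * Q.s ∅ p0 ∧
      fderiv ℝ (Gf Q A c S) p0 = ε • fderiv ℝ (Gf Q A c ∅) p0 := by
  obtain ⟨ε, hε, κ, hk⟩ := h.rel hp0 S
  refine ⟨ε, hε, hk.self_of_nhds.1, ?_⟩
  have hd := h.diffG (Gen_sub_Dm ∅ hp0) (Gb_sub_XO hp0.1)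
  have h1 : Gf Q A c S =ᶠ[𝓝 p0] fun p => ε • Gf Q A c ∅ p + κ := by
    filter_upwards [hk] with p hp using hp.2
  rw [h1.fderiv_eq, fderiv_add_const, fderiv_fun_const_smul hd]

theorem Flat.rel_pair (h : Flat Q A c ξ) {p0 : Bs × ℂ} (hp0 : p0 ∈ Gen)
    (S S' : Finset (Fin 6)) :
    ∃ ε : ℝ, (ε = 1 ∨ ε = -1) ∧ Q.s S' p0 = ε * Q.s S p0 ∧
      fderiv ℝ (Gf Q A c S') p0 = ε • fderiv ℝ (Gf Q A c S) p0 := by
  obtain ⟨ε, hε, h1, h2⟩ := h.rel_fderiv hp0 S
  obtain ⟨ε', hε', h1', h2'⟩ := h.rel_fderiv hp0 S'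
  have hεε : ε * ε = 1 := by rcases hε with rfl | rfl <;> norm_num
  refine ⟨ε' * ε, ?_, ?_, ?_⟩
  · rcases hε with rfl | rfl <;> rcases hε' with rfl | rfl <;> norm_num
  · have hc : (ε : ℂ) * ε = 1 := by exact_mod_cast hεε
    rw [h1, h1']
    push_cast
    linear_combination (-(ε' : ℂ) * Q.s ∅ p0) * hc
  · rw [h2, h2', smul_smul, mul_assoc, hεε, mul_one]

/-- the charts agree up to a common sign -/
theorem Flat.wd (h : Flat Q A c ξ) {p : Bs × ℂ} (hb : p.1 ∈ XO) {S S' : Finset (Fin 6)}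
    (hS : p ∈ Dm S) (hS' : p ∈ Dm S') :
    ∃ ε : ℝ, (ε = 1 ∨ ε = -1) ∧ Q.s S' p = ε * Q.s S p ∧
      fderiv ℝ (Gf Q A c S') p = ε • fderiv ℝ (Gf Q A c S) p := by
  have hne : ∀ {T : Finset (Fin 6)} {q : Bs × ℂ}, q ∈ Dm T → Q.s T q ≠ 0 := by
    intro T q hq h0
    have := Q.s_sq T q hq
    rw [h0] at this
    exact ff_ne_of_Dm hq (by rw [← this]; simp)
  -- the quotient of the square roots
  have hc : ContinuousAt (fun q => Q.s S' q / Q.s S q) p :=
    (Q.s_cont S' p hS').div (Q.s_cont S p hS) (hne hS)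
  have hsq : (Q.s S' p / Q.s S p) ^ 2 = 1 := by
    rw [div_pow, Q.s_sq S' p hS', Q.s_sq S p hS, div_self (ff_ne_of_Dm hS)]
  obtain ⟨ε, hε, hεr⟩ : ∃ ε : ℝ, (ε = 1 ∨ ε = -1) ∧ Q.s S' p / Q.s S p = ε := by
    rcases sq_one hsq with h1 | h1
    · exact ⟨1, Or.inl rfl, by rw [h1]; simp⟩
    · exact ⟨-1, Or.inr rfl, by rw [h1]; simp⟩
  refine ⟨ε, hε, ?_, ?_⟩
  · rw [← hεr, div_mul_cancel₀ _ (hne hS)]
  -- near the point
  have hnear : ∀ᶠ q in 𝓝 p, ‖Q.s S' q / Q.s S q - ε‖ < 1 := by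
    have h1 : ContinuousAt (fun q => ‖Q.s S' q / Q.s S q - ε‖) p := (hc.sub continuousAt_const).norm
    refine h1.eventually_lt continuousAt_const ?_
    change ‖Q.s S' p / Q.s S p - ε‖ < 1
    rw [hεr, sub_self, norm_zero]
    exact one_pos
  have hD : ∀ᶠ q in 𝓝 p, q ∈ Dm S := (isOpen_Dm S).mem_nhds hS
  have hev : ∀ᶠ t in 𝓝[≠] (0 : ℝ), fderiv ℝ (Gf Q A c S') (qt p t) =
      ε • fderiv ℝ (Gf Q A c S) (qt p t) := by
    filter_upwards [qt_gen p, (qt_tendsto p).eventually hnear,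
      (qt_tendsto p).eventually hD] with t h1 h2 h3
    obtain ⟨ε', hε', h4, h5⟩ := h.rel_pair h1 S S'
    have h6 : Q.s S' (qt p t) / Q.s S (qt p t) = ε' := by
      rw [h4, mul_div_assoc, div_self (hne h3), mul_one]
    rw [h6] at h2
    have h7 : ε' = ε := by
      rcases hε with rfl | rfl <;> rcases hε' with rfl | rfl
      · rfl
      · exfalso
        norm_num at h2
      · exfalso
        norm_num at h2
      · rfl
    rw [h5, h7]
  have hl : Tendsto (fun t => fderiv ℝ (Gf Q A c S') (qt p t)) (𝓝[≠] (0 : ℝ))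
      (𝓝 (fderiv ℝ (Gf Q A c S') p)) :=
    ((h.smD hS' hb).continuousAt.tendsto).comp (qt_tendsto p)
  have hr : Tendsto (fun t => ε • fderiv ℝ (Gf Q A c S) (qt p t)) (𝓝[≠] (0 : ℝ))
      (𝓝 (ε • fderiv ℝ (Gf Q A c S) p)) :=
    (((h.smD hS hb).continuousAt.tendsto).comp (qt_tendsto p)).const_smul ε
  exact tendsto_nhds_unique (hl.congr' hev) hr

/-- the form in any chart -/
theorem Flat.eta_eq (h : Flat Q A c ξ) {b : Bs} {x : ℂ} (hb : b ∈ XO) {S : Finset (Fin 6)}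
    (hS : (b, x) ∈ Dm S) (y : ℂ) :
    eta Q A c b x y = (y / Q.s S (b, x)).re • fderiv ℝ (Gf Q A c S) (b, x) := by
  obtain ⟨ε, hε, h1, h2⟩ := h.wd (p := (b, x)) hb hS (mem_Dm_Sx (ff_ne_of_Dm hS))
  unfold eta
  rw [h1, h2, smul_smul]
  congr 1
  rcases hε with rfl | rfl
  · simp
  · simp [div_neg]

/-- along a branch the form is the differential of plus or minus the potential -/
theorem Flat.eta_branch (h : Flat Q A c ξ) {p : Bs × ℂ} (hb : p.1 ∈ XO) {Y : Bs × ℂ → ℂ}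
    (hY : IsBr Y p) {S : Finset (Fin 6)} (hS : p ∈ Dm S) :
    ∃ ε : ℝ, (ε = 1 ∨ ε = -1) ∧ (∀ᶠ q in 𝓝 p, Y q = ε * Q.s S q) ∧
      ∀ᶠ q in 𝓝 p, eta Q A c q.1 q.2 (Y q) = ε • fderiv ℝ (Gf Q A c S) q := by
  have hne : Q.s S p ≠ 0 := by
    intro h0
    have := Q.s_sq S p hS
    rw [h0] at this
    exact ff_ne_of_Dm hS (by rw [← this]; simp)
  have hD : ∀ᶠ q in 𝓝 p, q ∈ Dm S := (isOpen_Dm S).mem_nhds hS
  have hsq : (Y p / Q.s S p) ^ 2 = 1 := by
    rw [div_pow, hY.sq.self_of_nhds, Q.s_sq S p hS, div_self (ff_ne_of_Dm hS)]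
  obtain ⟨ε, hε, hεr⟩ : ∃ ε : ℝ, (ε = 1 ∨ ε = -1) ∧ Y p / Q.s S p = ε := by
    rcases sq_one hsq with h1 | h1
    · exact ⟨1, Or.inl rfl, by rw [h1]; simp⟩
    · exact ⟨-1, Or.inr rfl, by rw [h1]; simp⟩
  have hεε : ε * ε = 1 := by rcases hε with rfl | rfl <;> norm_num
  have h3 : ∀ᶠ q in 𝓝 p, Y q = ε * Q.s S q := by
    refine eventuallyEq_of_sq hY.cont (continuousAt_const.mul (Q.s_cont S p hS)) ?_ hY.ne_zero ?_
    · rw [← hεr, div_mul_cancel₀ _ hne]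
    · filter_upwards [hY.sq, hD] with q h1 h2
      rw [h1, mul_pow, Q.s_sq S q h2]
      have : (ε : ℂ) ^ 2 = 1 := by
        rw [sq]
        exact_mod_cast hεε
      rw [this, one_mul]
  refine ⟨ε, hε, h3, ?_⟩
  have hX : ∀ᶠ q in 𝓝 p, (q : Bs × ℂ).1 ∈ XO :=
    continuous_fst.continuousAt.eventually_mem (isOpen_XO.mem_nhds hb)
  filter_upwards [h3, hD, hX, (Q.s_cont S p hS).eventually_ne hne] with q h4 h5 h6 h7
  rw [h.eta_eq h6 h5, h4, mul_div_assoc, div_self h7, mul_one, Complex.ofReal_re]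

theorem Flat.smooth (h : Flat Q A c ξ) {p : Bs × ℂ} (hb : p.1 ∈ XO) {Y : Bs × ℂ → ℂ}
    (hY : IsBr Y p) : ContDiffAt ℝ ∞ (fun q : Bs × ℂ => eta Q A c q.1 q.2 (Y q)) p := by
  obtain ⟨ε, _, _, h2⟩ := h.eta_branch hb hY (mem_Dm_Sx hY.ne)
  exact ((h.smD (mem_Dm_Sx hY.ne) hb).const_smul ε).congr_of_eventuallyEq h2

theorem Flat.closed (h : Flat Q A c ξ) {p : Bs × ℂ} (hb : p.1 ∈ XO) {Y : Bs × ℂ → ℂ}
    (hY : IsBr Y p) (v w : Bs × ℂ) :
    fderiv ℝ (fun q : Bs × ℂ => eta Q A c q.1 q.2 (Y q)) p v w =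
      fderiv ℝ (fun q : Bs × ℂ => eta Q A c q.1 q.2 (Y q)) p w v := by
  obtain ⟨ε, _, _, h2⟩ := h.eta_branch hb hY (mem_Dm_Sx hY.ne)
  have h3 : (fun q : Bs × ℂ => eta Q A c q.1 q.2 (Y q)) =ᶠ[𝓝 p]
      fun q => ε • fderiv ℝ (Gf Q A c (Sx p)) q := h2
  have hd : DifferentiableAt ℝ (fderiv ℝ (Gf Q A c (Sx p))) p :=
    (h.smD (mem_Dm_Sx hY.ne) hb).differentiableAt (by simp)
  rw [h3.fderiv_eq, fderiv_fun_const_smul hd]
  have h4 : IsSymmSndFDerivAt ℝ (Gf Q A c (Sx p)) p :=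
    (h.smG (mem_Dm_Sx hY.ne) hb).isSymmSndFDerivAt (by
      rw [minSmoothness_of_isRCLikeNormedField]
      exact WithTop.coe_le_coe.2 le_top)
  simp only [smul_apply]
  rw [h4 v w]

theorem Flat.fderiv_vert (h : Flat Q A c ξ) {b : Bs} {x : ℂ} (hb : b ∈ XO) {S : Finset (Fin 6)}
    (hS : (b, x) ∈ Dm S) (ζ : ℂ) :
    fderiv ℝ (Gf Q A c S) (b, x) (0, ζ) = A b (ζ / Q.s S (b, x), x * ζ / Q.s S (b, x)) := by
  have hd := (h.diffG hS hb).hasFDerivAt
  -- along the line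
  have hl : HasDerivAt (fun t : ℝ => ((b, x + t * ζ) : Bs × ℂ)) (0, ζ) 0 := by
    have h1 : HasDerivAt (fun t : ℝ => x + t * ζ) ζ 0 := by
      have := ((Complex.ofRealCLM.hasDerivAt (x := (0 : ℝ))).mul_const ζ).const_add x
      simpa using this
    exact (hasDerivAt_const (0 : ℝ) b).prodMk h1
  have h0 : ((b, x + ((0 : ℝ) : ℂ) * ζ) : Bs × ℂ) = (b, x) := by simp
  have h1 : HasDerivAt (fun t : ℝ => Gf Q A c S (b, x + t * ζ))
      (fderiv ℝ (Gf Q A c S) (b, x) (0, ζ)) 0 := by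
    have hd' : HasFDerivAt (Gf Q A c S) (fderiv ℝ (Gf Q A c S) (b, x))
        ((b, x + ((0 : ℝ) : ℂ) * ζ) : Bs × ℂ) := by rw [h0]; exact hd
    exact hd'.comp_hasDerivAt (0 : ℝ) hl
  have h2 : HasDerivAt (fun t : ℝ => Q.P S (b, x + t * ζ))
      ((ζ / Q.s S (b, x), x * ζ / Q.s S (b, x)) : ℂ × ℂ) 0 := by
    have h3 := Q.P_x S (b, x) hS hb
    have h4 : HasDerivAt (fun t : ℝ => x + t * ζ) ζ 0 := by
      have := ((Complex.ofRealCLM.hasDerivAt (x := (0 : ℝ))).mul_const ζ).const_add x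
      simpa using this
    have h3' : HasDerivAt (fun x : ℂ => Q.P S (b, x))
        ((1 / Q.s S (b, x), x / Q.s S (b, x)) : ℂ × ℂ) (x + ((0 : ℝ) : ℂ) * ζ) := by
      simpa using h3
    have h5 := HasDerivAt.scomp (0 : ℝ) h3' h4
    refine h5.congr_deriv ?_
    rw [Prod.smul_mk, smul_eq_mul, smul_eq_mul]
    congr 1 <;> ring
  have h3 : HasDerivAt (fun t : ℝ => Gf Q A c S (b, x + t * ζ))
      (A b (ζ / Q.s S (b, x), x * ζ / Q.s S (b, x))) 0 := by
    have := ((A b).hasFDerivAt.comp_hasDerivAt (0 : ℝ) h2).add_const (c b)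
    exact this
  exact h1.unique h3

theorem Flat.vert (h : Flat Q A c ξ) {b : Bs} (hb : b ∈ XO) {x y : ℂ} (hy : y ^ 2 = ff (b, x))
    (hy0 : y ≠ 0) (ζ : ℂ) : eta Q A c b x y (0, ζ) = A b (ζ / y, x * ζ / y) := by
  have hff : ff (b, x) ≠ 0 := by rw [← hy]; exact pow_ne_zero 2 hy0
  have hS := mem_Dm_Sx hff
  set s := Q.s (Sx (b, x)) (b, x) with hs
  have hss : s ^ 2 = ff (b, x) := Q.s_sq _ _ hS
  have hne : s ≠ 0 := by
    intro h0
    rw [h0] at hss
    exact hff (by rw [← hss]; simp)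
  rw [eta, smul_apply, h.fderiv_vert hb hS]
  have hsq : (y / s) ^ 2 = 1 := by rw [div_pow, hy, hss, div_self hff]
  rcases sq_one hsq with h1 | h1
  · have h2 : y = s := by rw [← div_mul_cancel₀ y hne, h1, one_mul]
    rw [← hs, h1, Complex.one_re, one_smul, h2]
  · have h2 : y = -s := by rw [← div_mul_cancel₀ y hne, h1]; ring
    rw [← hs, h1, Complex.neg_re, Complex.one_re, neg_one_smul, h2, ← map_neg, Prod.neg_mk,
      div_neg, div_neg]

/-! ### relabelling -/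

/-- relabelling of the roots -/
def relL (w : Equiv.Perm (Fin 6)) : Bs × ℂ →L[ℝ] Bs × ℂ :=
  (ContinuousLinearMap.pi fun i =>
    (ContinuousLinearMap.proj (R := ℝ) (φ := fun _ : Fin 6 => ℂ) (w i)).comp
      (ContinuousLinearMap.fst ℝ Bs ℂ)).prod (ContinuousLinearMap.snd ℝ Bs ℂ)

theorem relL_apply (w : Equiv.Perm (Fin 6)) (p : Bs × ℂ) : relL w p = (p.1 ∘ w, p.2) := rfl

/-- the data do not depend on the names of the roots -/
structure Pot.Rel (Q : Pot) : Prop where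
  s : ∀ (w : Equiv.Perm (Fin 6)) (S : Finset (Fin 6)) (b : Bs) (x : ℂ),
    Q.s S (b ∘ w, x) = Q.s (S.image w) (b, x)
  P : ∀ (w : Equiv.Perm (Fin 6)) (S : Finset (Fin 6)) (b : Bs) (x : ℂ),
    Q.P S (b ∘ w, x) = Q.P (S.image w) (b, x)

theorem image_Sx (w : Equiv.Perm (Fin 6)) (b : Bs) (x : ℂ) :
    (Sx (b ∘ w, x)).image w = Sx (b, x) := by
  ext l
  rw [Finset.mem_image]
  constructor
  · rintro ⟨m, hm, rfl⟩
    have h1 := mem_Sx.1 hm
    exact mem_Sx.2 h1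
  · intro hl
    refine ⟨w.symm l, mem_Sx.2 ?_, w.apply_symm_apply l⟩
    have := mem_Sx.1 hl
    simpa using this

theorem Flat.eta_rel {A' : Bs → (ℂ × ℂ →L[ℝ] H)} {c' : Bs → H} {ξ' : Fin 6 → H}
    (_h : Flat Q A c ξ) (h' : Flat Q A' c' ξ') (hR : Q.Rel) (w : Equiv.Perm (Fin 6)) {b : Bs}
    (hb' : b ∘ w ∈ XO) (hA : ∀ᶠ b1 in 𝓝 b, A b1 = A' (b1 ∘ w))
    (hc : ∀ᶠ b1 in 𝓝 b, c b1 = c' (b1 ∘ w)) {x : ℂ} (hx : ff (b, x) ≠ 0) (y : ℂ) :
    eta Q A c b x y = (eta Q A' c' (b ∘ w) x y).comp (relL w) := by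
  have hx' : ff (b ∘ w, x) ≠ 0 := by
    rw [ff_ne_zero_iff] at hx ⊢
    exact fun i => hx (w i)
  have h1 : Gf Q A c (Sx (b, x)) =ᶠ[𝓝 (b, x)]
      fun q => Gf Q A' c' (Sx (b ∘ w, x)) (relL w q) := by
    have e0 : Tendsto (fun q : Bs × ℂ => q.1) (𝓝 (b, x)) (𝓝 b) := continuous_fst.tendsto _
    have e1 := e0.eventually hA
    have e2 := e0.eventually hc
    filter_upwards [e1, e2] with q h3 h4
    rw [relL_apply, Gf, Gf, h3, h4, hR.P, image_Sx]
  have hd : DifferentiableAt ℝ (Gf Q A' c' (Sx (b ∘ w, x))) (relL w (b, x)) :=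
    h'.diffG (mem_Dm_Sx hx') hb'
  have h2 : fderiv ℝ (Gf Q A c (Sx (b, x))) (b, x) =
      (fderiv ℝ (Gf Q A' c' (Sx (b ∘ w, x))) (b ∘ w, x)).comp (relL w) := by
    rw [h1.fderiv_eq]
    have := hd.hasFDerivAt.comp (b, x) (relL w).hasFDerivAt
    exact this.fderiv
  unfold eta
  rw [h2, hR.s, image_Sx, ContinuousLinearMap.smul_comp]

end

end

end Vale.Agent.P273.H580
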