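import Vale.Agent.P273.H580.Eta
import Vale.Agent.P273.H857.Stm

/-!
# P273, row BULK-POTH: helper857's primitives as an instance of `Pot`; relabelling; the basic half
periods after a half twist
-/

namespace Vale.Agent.P273.H580

open scoped ContDiff Topology
open Set Filter
open Vale.Agent.P273.H214 (Bs ff IsBr)
open Vale.Agent.P273.H857

noncomputable section

/-! ### the two descriptions of the charts -/

theorem xo_inj {b : Bs} (hb : b ∈ XO) : Function.Injective b := XO_sub_Cf hb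

theorem gb_inj {b : Bs} (hb : b ∈ Gb) : Function.Injective b := xo_inj (Gb_sub_XO hb)

theorem ok_of_Dm {S : Finset (Fin 6)} {p : Bs × ℂ} (h : p ∈ H580.Dm S) : OK S p.1 p.2 := by
  refine ⟨fun l hl m hm h1 h2 => h.1 l hl m hm h1 h2.le, fun l _ h1 => ⟨fun hl => ?_, fun hl => ?_⟩⟩
  · exact h.2.1 l hl h1
  · exact h.2.2 l hl h1

theorem ne_of_Dm {S : Finset (Fin 6)} {p : Bs × ℂ} (h : p ∈ H580.Dm S) (l : Fin 6) :
    p.1 l ≠ p.2 := by
  have := ff_ne_of_Dm h
  rw [H214.ff_ne_zero_iff] at this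
  exact (this l).symm

theorem mem_Dm857 {S : Finset (Fin 6)} {p : Bs × ℂ} (h : p ∈ H580.Dm S) :
    p.2 ∈ H857.Dm S p.1 := by
  intro l
  rw [mem_Sb_iff]
  intro h0
  rw [Complex.sub_re, sub_eq_zero] at h0
  constructor
  · intro hl
    have := h.2.1 l hl h0.symm
    rw [Complex.sub_im]
    linarith
  · intro hl
    have := h.2.2 l hl h0.symm
    rw [Complex.sub_im]
    linarith

/-- at generic configurations every set is admissible at a root -/
theorem ok_root {S : Finset (Fin 6)} {b : Bs} (hb : b ∈ Gb) (j : Fin 6) : OK S b (b j) := by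
  refine ⟨fun l hl m hm h1 _ => ?_, fun l h1 h2 => ?_⟩
  · exact absurd h1 (hb l m fun h' => hm (h' ▸ hl))
  · exact absurd h2 (hb l j fun h' => h1 (by rw [h']))

/-! ### the square roots under flips -/

theorem sqj_insert {m : Fin 6} {B : Finset (Fin 6)} (b : C6) (z : ℂ) :
    sqj m (insert m B) b z = sqj m B b z := by
  unfold sqj
  refine Finset.prod_congr rfl fun l hl => ?_
  have hne : l ≠ m := Finset.ne_of_mem_erase hl
  unfold br
  simp [hne]

theorem sq_flip_r {m : Fin 6} {B : Finset (Fin 6)} (hm : m ∉ B) {b : C6} {z : ℂ}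
    (h : (b m).re < z.re) : sq (insert m B) b z = sq B b z := by
  have h1 : 0 < (z - b m).re := by rw [Complex.sub_re]; linarith
  rw [sq_eq m (insert m B), sq_eq m B, sqj_insert]
  unfold br
  rw [if_pos (Finset.mem_insert_self m B), if_neg hm, rt_eq_ru h1]

theorem sq_flip_l {m : Fin 6} {B : Finset (Fin 6)} (hm : m ∉ B) {b : C6} {z : ℂ}
    (h : z.re < (b m).re) : sq (insert m B) b z = -sq B b z := by
  have h1 : (z - b m).re < 0 := by rw [Complex.sub_re]; linarith
  rw [sq_eq m (insert m B), sq_eq m B, sqj_insert]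
  unfold br
  rw [if_pos (Finset.mem_insert_self m B), if_neg hm, rt_eq_neg_ru h1]
  ring

/-! ### relabelling -/

theorem sq_rel (w : Equiv.Perm (Fin 6)) (B : Finset (Fin 6)) (b : C6) (z : ℂ) :
    H857.sq B (b ∘ w) z = H857.sq (B.image w) b z := by
  unfold H857.sq
  refine Fintype.prod_equiv w _ _ fun l => ?_
  unfold br
  have : w l ∈ B.image w ↔ l ∈ B := by simp
  simp only [this, Function.comp]

theorem adm_rel (w : Equiv.Perm (Fin 6)) (B : Finset (Fin 6)) (b : C6) (x : ℂ) (g : ℝ → ℝ) :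
    Adm B (b ∘ w) x g ↔ Adm (B.image w) b x g := by
  unfold Adm
  refine and_congr_right fun _ => ?_
  have hm : ∀ l, w l ∈ B.image w ↔ l ∈ B := fun l => by simp
  constructor
  · intro h l
    have := h (w.symm l)
    simp only [Function.comp, Equiv.apply_symm_apply] at this
    have h2 := hm (w.symm l)
    rw [Equiv.apply_symm_apply] at h2
    rw [h2]
    exact this
  · intro h l
    have := h (w l)
    rw [hm l] at this
    exact this

theorem choose_congr {α : Sort*} {p q : α → Prop} (e : p = q) (hp : ∃ a, p a)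
    (hq : ∃ a, q a) : hp.choose = hq.choose := by
  subst e
  rfl

theorem P_rel (k : ℕ) (w : Equiv.Perm (Fin 6)) (B : Finset (Fin 6)) (b : C6) (x : ℂ) :
    P k B (b ∘ w) x = P k (B.image w) b x := by
  have h1 : Adm B (b ∘ w) x = Adm (B.image w) b x := funext fun g => propext (adm_rel w B b x g)
  have h2 : sq B (b ∘ w) = sq (B.image w) b := funext fun z => sq_rel w B b z
  have h3 : ∀ g, PG k B (b ∘ w) x g = PG k (B.image w) b x g := by
    intro g
    unfold PG igd
    rw [h2]
  unfold P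
  by_cases h : ∃ g, Adm (B.image w) b x g
  · have h' : ∃ g, Adm B (b ∘ w) x g := by
      rw [h1]
      exact h
    rw [dif_pos h', dif_pos h, h3, choose_congr h1 h' h]
  · have h' : ¬ ∃ g, Adm B (b ∘ w) x g := by
      rw [h1]
      exact h
    rw [dif_neg h', dif_neg h]

theorem lo_mem {j l : Fin 6} : l ∈ lo j ↔ l < j := by simp [lo]

/-- over `XX` the labels smaller than `j` are admissible at the root `j` -/
theorem ok_lo {b : Bs} (hb : b ∈ XO) (j : Fin 6) : OK (lo j) b (b j) := by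
  refine ⟨fun l hl m hm h1 _ => ?_, fun l hlj h1 => ⟨fun hl => ?_, fun hl => ?_⟩⟩
  · have h2 : l < m := lt_of_lt_of_le (lo_mem.1 hl) (not_lt.1 fun h => hm (lo_mem.2 h))
    exact hb l m h2 h1
  · exact hb l j (lo_mem.1 hl) h1
  · have h2 : j ≤ l := not_lt.1 fun h => hl (lo_mem.2 h)
    have h3 : j < l := lt_of_le_of_ne h2 fun h => hlj (by rw [h])
    exact hb j l h3 h1.symm

/-! ### the instance -/

/-- the half periods -/
def pjX (S : Finset (Fin 6)) (j : Fin 6) (b : Bs) : ℂ × ℂ := (P 0 S b (b j), P 1 S b (b j))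

/-- **helper857's primitives** -/
def potX (hH : StmHOL) (hR : StmFLIPR) (hL : StmFLIPL) : Pot where
  s S p := sq S p.1 p.2
  P S p := (P 0 S p.1 p.2, P 1 S p.1 p.2)
  pj := pjX
  s_cont S p hp := (analyticAt_sq (mem_Dm857 hp)).continuousAt
  s_sq S p _ := by
    rw [pow_two, sq_mul_self]
    rfl
  P_sm S p hp hb := by
    have h0 := (hH 0 S p.1 p.2 (by norm_num) (xo_inj hb) (ne_of_Dm hp) (ok_of_Dm hp)).1
    have h1 := (hH 1 S p.1 p.2 (by norm_num) (xo_inj hb) (ne_of_Dm hp) (ok_of_Dm hp)).1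
    exact (h0.contDiffAt.restrict_scalars ℝ).prodMk (h1.contDiffAt.restrict_scalars ℝ)
  P_x S p hp hb := by
    have h0 := (hH 0 S p.1 p.2 (by norm_num) (xo_inj hb) (ne_of_Dm hp) (ok_of_Dm hp)).2
    have h1 := (hH 1 S p.1 p.2 (by norm_num) (xo_inj hb) (ne_of_Dm hp) (ok_of_Dm hp)).2
    rw [pow_zero] at h0
    rw [pow_one] at h1
    exact h0.prodMk h1
  s_r S m hm p _ h := sq_flip_r hm h
  s_l S m hm p _ h := sq_flip_l hm h
  P_r S m hm p hp h := by
    have ok1 := ok_of_Dm (Gen_sub_Dm S hp)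
    have ok2 := ok_of_Dm (Gen_sub_Dm (insert m S) hp)
    rw [hR 0 S p.1 p.2 m (by norm_num) (gb_inj hp.1) hm ok1 ok2 h.le,
      hR 1 S p.1 p.2 m (by norm_num) (gb_inj hp.1) hm ok1 ok2 h.le]
  P_l S m hm p hp h := by
    have ok1 := ok_of_Dm (Gen_sub_Dm S hp)
    have ok2 := ok_of_Dm (Gen_sub_Dm (insert m S) hp)
    have e0 := hL 0 S p.1 p.2 m (by norm_num) (gb_inj hp.1) hm ok1 ok2 h
    have e1 := hL 1 S p.1 p.2 m (by norm_num) (gb_inj hp.1) hm ok1 ok2 h
    refine Prod.ext ?_ ?_
    · simp only [pjX, Prod.fst_sub, Prod.fst_add]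
      linear_combination e0
    · simp only [pjX, Prod.snd_sub, Prod.snd_add]
      linear_combination e1
  pj_r S j _ m hm _ b hb h := by
    unfold pjX
    rw [hR 0 S b (b j) m (by norm_num) (gb_inj hb) hm (ok_root hb j) (ok_root hb j) h.le,
      hR 1 S b (b j) m (by norm_num) (gb_inj hb) hm (ok_root hb j) (ok_root hb j) h.le]
  pj_l S j _ m hm _ b hb h := by
    have e0 := hL 0 S b (b j) m (by norm_num) (gb_inj hb) hm (ok_root hb j) (ok_root hb j) h
    have e1 := hL 1 S b (b j) m (by norm_num) (gb_inj hb) hm (ok_root hb j) (ok_root hb j) h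
    refine Prod.ext ?_ ?_
    · simp only [pjX, Prod.fst_sub, Prod.fst_add]
      linear_combination e0
    · simp only [pjX, Prod.snd_sub, Prod.snd_add]
      linear_combination e1

theorem potX_rel (hH : StmHOL) (hR : StmFLIPR) (hL : StmFLIPL) : (potX hH hR hL).Rel where
  s w S b x := sq_rel w S b x
  P w S b x := by
    change (P 0 S (b ∘ w) x, P 1 S (b ∘ w) x) = (P 0 (S.image w) b x, P 1 (S.image w) b x)
    rw [P_rel, P_rel]

/-! ### the basic half periods after a half twist -/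

section
variable {b : Bs} {i : Fin 5}

/-- exchange of the labels `i`, `i + 1` -/
abbrev sw (i : Fin 5) : Equiv.Perm (Fin 6) := Equiv.swap i.castSucc i.succ

theorem piX_rel (k : ℕ) (w : Equiv.Perm (Fin 6)) (j : Fin 6) :
    piX k j (b ∘ w) = P k ((lo j).image w) b (b (w j)) := by
  unfold piX
  rw [P_rel]
  rfl

theorem castSucc_lt (i : Fin 5) : i.castSucc < i.succ := Fin.castSucc_lt_succ

theorem lt_succ_iff {i : Fin 5} {l : Fin 6} : l < i.succ ↔ l < i.castSucc ∨ l = i.castSucc := by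
  rw [← le_iff_lt_or_eq, Fin.lt_def, Fin.le_def, Fin.val_succ, Fin.val_castSucc, Nat.lt_succ_iff]

theorem image_lo_other {j : Fin 6} (_h1 : j ≠ i.castSucc) (h2 : j ≠ i.succ) :
    (lo j).image (sw i) = lo j := by
  have h3 : i.castSucc < j ↔ i.succ < j := by
    constructor
    · intro h
      refine lt_of_le_of_ne ?_ (Ne.symm h2)
      rw [Fin.lt_def, Fin.val_castSucc] at h
      rw [Fin.le_def, Fin.val_succ]
      omega
    · exact fun h => (castSucc_lt i).trans h
  ext l
  rw [Finset.mem_image]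
  constructor
  · rintro ⟨m, hm, rfl⟩
    rw [lo_mem] at hm ⊢
    rcases eq_or_ne m i.castSucc with rfl | hm1
    · rw [Equiv.swap_apply_left]; exact h3.1 hm
    rcases eq_or_ne m i.succ with rfl | hm2
    · rw [Equiv.swap_apply_right]; exact h3.2 hm
    rwa [Equiv.swap_apply_of_ne_of_ne hm1 hm2]
  · intro hl
    rw [lo_mem] at hl
    refine ⟨sw i l, ?_, Equiv.swap_apply_self _ _ _⟩
    rw [lo_mem]
    rcases eq_or_ne l i.castSucc with rfl | hm1
    · rw [Equiv.swap_apply_left]; exact h3.1 hl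
    rcases eq_or_ne l i.succ with rfl | hm2
    · rw [Equiv.swap_apply_right]; exact h3.2 hl
    rwa [Equiv.swap_apply_of_ne_of_ne hm1 hm2]

theorem image_lo_cast : (lo i.castSucc).image (sw i) = lo i.castSucc := by
  ext l
  rw [Finset.mem_image]
  have key : ∀ m, m < i.castSucc → sw i m = m := fun m hm =>
    Equiv.swap_apply_of_ne_of_ne hm.ne (hm.trans (castSucc_lt i)).ne
  constructor
  · rintro ⟨m, hm, rfl⟩
    rw [lo_mem] at hm ⊢
    rwa [key m hm]
  · intro hl
    rw [lo_mem] at hl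
    exact ⟨l, lo_mem.2 hl, key l hl⟩

theorem lo_succ : lo i.succ = insert i.castSucc (lo i.castSucc) := by
  ext l
  rw [Finset.mem_insert, lo_mem, lo_mem, lt_succ_iff, or_comm]

theorem image_lo_succ : (lo i.succ).image (sw i) = insert i.succ (lo i.castSucc) := by
  rw [lo_succ, Finset.image_insert, image_lo_cast, Equiv.swap_apply_left]

theorem ok1 (hb : b ∈ XO) (hi : (b i.succ).re < (b i.castSucc).re) :
    OK (insert i.succ (lo i.castSucc)) b (b i.castSucc) := by
  refine ⟨fun l hl m hm h1 h2 => ?_, fun l hlj h1 => ⟨fun hl => ?_, fun hl => ?_⟩⟩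
  · rw [Finset.mem_insert] at hl
    rcases hl with rfl | hl
    · exact absurd h2 (not_lt.2 hi.le)
    · have h3 : ¬ m < i.castSucc := fun h => hm (Finset.mem_insert_of_mem (lo_mem.2 h))
      exact hb l m (lt_of_lt_of_le (lo_mem.1 hl) (not_lt.1 h3)) h1
  · rw [Finset.mem_insert] at hl
    rcases hl with rfl | hl
    · exact absurd h1 hi.ne
    · exact hb l _ (lo_mem.1 hl) h1
  · have h3 : ¬ l < i.castSucc := fun h => hl (Finset.mem_insert_of_mem (lo_mem.2 h))
    have h4 : i.castSucc < l := lt_of_le_of_ne (not_lt.1 h3) fun h => hlj (by rw [h])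
    exact hb _ l h4 h1.symm

theorem ok2 (hb : b ∈ XO) (hi : (b i.succ).re < (b i.castSucc).re) :
    OK (lo i.castSucc) b (b i.succ) := by
  refine ⟨fun l hl m hm h1 _ => ?_, fun l hlj h1 => ⟨fun hl => ?_, fun hl => ?_⟩⟩
  · have h3 : ¬ m < i.castSucc := fun h => hm (lo_mem.2 h)
    exact hb l m (lt_of_lt_of_le (lo_mem.1 hl) (not_lt.1 h3)) h1
  · exact hb l _ ((lo_mem.1 hl).trans (castSucc_lt i)) h1
  · have h3 : ¬ l < i.castSucc := fun h => hl (lo_mem.2 h)
    have h4 : l ≠ i.castSucc := fun h => hi.ne (by rw [← h, h1])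
    have h5 : ¬ l < i.succ := fun h => (lt_succ_iff.1 h).elim h3 h4
    have h6 : i.succ < l := lt_of_le_of_ne (not_lt.1 h5) fun h => hlj (by rw [h])
    exact hb _ l h6 h1.symm

theorem piX_other (k : ℕ) {j : Fin 6} (h1 : j ≠ i.castSucc) (h2 : j ≠ i.succ) :
    piX k j (b ∘ sw i) = piX k j b := by
  rw [piX_rel, image_lo_other h1 h2, Equiv.swap_apply_of_ne_of_ne h1 h2]
  rfl

theorem piX_succ (hR : StmFLIPR) {k : ℕ} (hk : k ≤ 1) (hb : b ∈ XO)
    (hi : (b i.succ).re < (b i.castSucc).re) :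
    piX k i.succ (b ∘ sw i) = piX k i.castSucc b := by
  rw [piX_rel, image_lo_succ, Equiv.swap_apply_right]
  have hm : i.succ ∉ lo i.castSucc := fun h => (not_lt.2 (castSucc_lt i).le) (lo_mem.1 h)
  exact hR k _ b _ i.succ hk (xo_inj hb) hm (ok_lo hb _) (ok1 hb hi) hi.le

theorem piX_cast (hL : StmFLIPL) {k : ℕ} (hk : k ≤ 1) (hb : b ∈ XO)
    (hi : (b i.succ).re < (b i.castSucc).re) :
    piX k i.castSucc (b ∘ sw i) = piX k i.castSucc b + piX k i.castSucc b - piX k i.succ b := by
  rw [piX_rel, image_lo_cast, Equiv.swap_apply_left]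
  have hm : i.castSucc ∉ lo i.castSucc := fun h => lt_irrefl _ (lo_mem.1 h)
  have h1 : OK (insert i.castSucc (lo i.castSucc)) b (b i.succ) := by
    rw [← lo_succ]
    exact ok_lo hb _
  have h2 := hL k (lo i.castSucc) b (b i.succ) i.castSucc hk (xo_inj hb) hm (ok2 hb hi) h1 hi
  have h3 : P k (insert i.castSucc (lo i.castSucc)) b (b i.succ) = piX k i.succ b := by
    rw [← lo_succ]
    rfl
  rw [h3] at h2
  have h4 : P k (lo i.castSucc) b (b i.castSucc) = piX k i.castSucc b := rfl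
  rw [h4] at h2
  linear_combination h2

end

end

end Vale.Agent.P273.H580
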